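import Vale.Agent.Lib.P063.Width

/-!
# The Friedgut-Kalai threshold width conjecture.

For every `r ≥ 2` and `0 < ε < 1/2` there is a constant `C` such that every nontrivial increasing
`r`-uniform hypergraph property on `n ≥ r` vertices has threshold width at most
`C (log n) ^ (-(r / (r - 1)))`.
-/

open Finset BigOperators

namespace Vale.Agent.Results.P063.A_full

/-- The edge set `E_{n,r}`: the `r`-element subsets of the vertex set `Fin n`. -/
abbrev Hyperedge (n r : ℕ) := {s : Finset (Fin n) // s.card = r}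

/-- A vertex permutation sends an `r`-set to its image. -/
def relabel {n r : ℕ} (π : Equiv.Perm (Fin n)) (e : Hyperedge n r) : Hyperedge n r :=
  ⟨e.1.map π.toEmbedding, by simpa using e.2⟩

/-- A family of points of `{0,1}^{E_{n,r}}` invariant under all permutations of the vertices. -/
def IsHypergraphProperty {n r : ℕ} (P : Set (Hyperedge n r → Bool)) : Prop :=
  ∀ (π : Equiv.Perm (Fin n)) (x : Hyperedge n r → Bool), x ∈ P → (fun e => x (relabel π e)) ∈ P

/-- Adding edges preserves membership. -/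
def IsIncreasingProperty {n r : ℕ} (P : Set (Hyperedge n r → Bool)) : Prop :=
  ∀ x y : Hyperedge n r → Bool, (∀ e, x e = true → y e = true) → x ∈ P → y ∈ P

/-- Neither empty nor everything. -/
def IsNontrivialProperty {n r : ℕ} (P : Set (Hyperedge n r → Bool)) : Prop :=
  P.Nonempty ∧ P ≠ Set.univ

open Classical in
/-- `μ_p(P)`: the probability that the random hypergraph, each edge present independently with
probability `p`, lies in `P`. -/
noncomputable def edgeMeasure {n r : ℕ} (P : Set (Hyperedge n r → Bool)) (p : ℝ) : ℝ :=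
  ∑ x : Hyperedge n r → Bool, if x ∈ P then ∏ e, (if x e = true then p else 1 - p) else 0

/-- `p_a(P) = inf {p ∈ [0,1] : μ_p(P) ≥ a}`. -/
noncomputable def threshold {n r : ℕ} (P : Set (Hyperedge n r → Bool)) (a : ℝ) : ℝ :=
  sInf {p : ℝ | p ∈ Set.Icc (0 : ℝ) 1 ∧ a ≤ edgeMeasure P p}

/-- `w_ε(P) = p_{1-ε}(P) - p_ε(P)`. -/
noncomputable def thresholdWidth {n r : ℕ} (P : Set (Hyperedge n r → Bool)) (ε : ℝ) : ℝ :=
  threshold P (1 - ε) - threshold P ε

lemma edgeMeasure_eq {n r : ℕ} (P : Set (Hyperedge n r → Bool)) (p : ℝ) :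
    edgeMeasure P p = Vale.Agent.Lib.P063.EE p (Vale.Agent.Lib.P063.indP P) := by
  classical
  unfold edgeMeasure Vale.Agent.Lib.P063.EE Vale.Agent.Lib.P063.indP Vale.Agent.Lib.P063.wt
  refine Finset.sum_congr rfl (fun x _ => ?_)
  by_cases hx : x ∈ P
  · simp only [hx, if_true, mul_one]
    refine Finset.prod_congr rfl (fun e _ => ?_)
    cases x e <;> simp [Vale.Agent.Lib.P063.w1]
  · simp [hx]

/-- **Friedgut-Kalai.** `w_ε(P) ≤ C (log n) ^ (-(r / (r - 1)))` for every nontrivial increasing
`r`-uniform hypergraph property on `n ≥ r` vertices, with `C` depending only on `r` and `ε`.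
For `r = 2` the exponent is `-2`. -/
theorem result {r : ℕ} (hr : 2 ≤ r) {ε : ℝ} (hε0 : 0 < ε) (hε1 : ε < 1 / 2) :
    ∃ C : ℝ, ∀ n : ℕ, r ≤ n → ∀ P : Set (Hyperedge n r → Bool),
      IsHypergraphProperty P → IsIncreasingProperty P → IsNontrivialProperty P →
        thresholdWidth P ε ≤ C * Real.log (n : ℝ) ^ (-((r : ℝ) / ((r : ℝ) - 1))) := by
  refine ⟨2 / ε * (65536 * (r : ℝ) ^ 2 + 64 * r), fun n hn P h1 h2 h3 => ?_⟩
  have h := Vale.Agent.Lib.P063.width_bound hr hε0 hε1 n hn P h1 h2 h3.1 h3.2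
  have e : ∀ a, threshold P a = Vale.Agent.Lib.P063.thr P a := by
    intro a
    unfold threshold Vale.Agent.Lib.P063.thr
    simp only [edgeMeasure_eq]
  unfold thresholdWidth
  rw [e, e]
  exact h

end Vale.Agent.Results.P063.A_full
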